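import Vale.Agent.Lib.P038.Sat.Shapes.S6_6t
noncomputable section
namespace Vale.Agent.Lib.P038.Sat.I.M1_6
open Vale.Agent.Lib.P038.Sat
def W : Nat := 98
def M : Nat := 316912650057057350374175801343
def GT : Nat := 4918094456748899234844803957275416395755272145550302383205892559059525585673191393452361327041229708915020379145672517949370289119595770835901233360278935913693742223893815084948093313937735441410460762265595766875348642610722394779615682093820185192701133452454739336627327566036972941600020780776804222623635123787324252964809139758281774796309705298233830328963182863966439410322221624759003620120613632523681554159017423089590784337260079575218218883993496085825041626523761328867446659135149436399123337673583944357027512263540458973449040660001121586736106623325469741466160704175606396900250283364791925493454120340771507773968482725463739439199083955831601354016582000344684778286901213157388197889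
def h0 : T := (T.l (nat_lit 0))
def H : T := h0
theorem hlast : getB H 0 = 0 := by decide +kernel
end Vale.Agent.Lib.P038.Sat.I.M1_6
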